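import Vale.Agent.P333.R3.H641.K8.Str

set_option autoImplicit false

/-!
P333: checks of steps of the greedy algorithm.
-/

namespace Vale.Agent.P333.R3.H641.K8

open Vale.Agent.P333.H476.Nm

theorem ok24 : stepOk s34 s35 1254
    [m23, m22, m21, m19, m17, m15, m13, m11, m9, m7, m5, m3, m1, s0, s1, s2, s3, s4, s5, s6, s7, s32, s33] = true := by
  decide +kernel

theorem e24 : mrg s34 s35 1254 = m24 := by
  decide +kernel

theorem ok33 : stepOk m11 m9 324
    [m32, m31, m30, m29, m27, m25, m23, m21, m19, m17, m15, m13, m3, m1] = true := by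
  decide +kernel

theorem e33 : mrg m11 m9 324 = m33 := by
  decide +kernel

end Vale.Agent.P333.R3.H641.K8
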