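import Vale.Agent.P333.R3.H641.K8.Str

set_option autoImplicit false

/-!
P333: checks of steps of the greedy algorithm.
-/

namespace Vale.Agent.P333.R3.H641.K8

open Vale.Agent.P333.H476.Nm

theorem ok2 : stepOk s46 m0 1398
    [m1, s0, s1, s2, s3, s4, s5, s6, s7, s8, s9, s10, s11, s12, s13, s14, s15, s16, s17, s18, s19, s20, s21, s22, s23, s24, s25, s26, s27, s28, s29, s32, s33, s34, s35, s36, s37, s38, s39, s40, s41, s42, s43, s44, s45] = true := by
  decide +kernel

theorem e2 : mrg s46 m0 1398 = m2 := by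
  decide +kernel

theorem ok17 : stepOk s12 s13 1300
    [m16, m15, m14, m13, m11, m9, m7, m5, m3, m1, s0, s1, s2, s3, s4, s5, s6, s7, s8, s9, s10, s11, s14, s15, s32, s33, s34, s35, s36, s37] = true := by
  decide +kernel

theorem e17 : mrg s12 s13 1300 = m17 := by
  decide +kernel

end Vale.Agent.P333.R3.H641.K8
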