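import Vale.Agent.P333.R3.H641.K8.Str

set_option autoImplicit false

/-!
P333: checks of steps of the greedy algorithm.
-/

namespace Vale.Agent.P333.R3.H641.K8

open Vale.Agent.P333.H476.Nm

theorem ok9 : stepOk s20 s21 1348
    [m8, m7, m6, m5, m3, m1, s0, s1, s2, s3, s4, s5, s6, s7, s8, s9, s10, s11, s12, s13, s14, s15, s16, s17, s18, s19, s22, s23, s32, s33, s34, s35, s36, s37, s38, s39, s40, s41] = true := by
  decide +kernel

theorem e9 : mrg s20 s21 1348 = m9 := by
  decide +kernel

theorem ok18 : stepOk m16 m14 1296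
    [m17, m15, m13, m11, m9, m7, m5, m3, m1, s0, s1, s2, s3, s4, s5, s6, s7, s8, s9, s10, s11, s14, s15, s32, s33, s34, s35, s36, s37] = true := by
  decide +kernel

theorem e18 : mrg m16 m14 1296 = m18 := by
  decide +kernel

theorem ok28 : stepOk s32 s33 1224
    [m27, m26, m25, m23, m21, m19, m17, m15, m13, m11, m9, m7, m5, m3, m1, s0, s1, s2, s3] = true := by
  decide +kernel

theorem e28 : mrg s32 s33 1224 = m28 := by
  decide +kernel

end Vale.Agent.P333.R3.H641.K8
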