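import Vale.Agent.P333.R3.H641.K8.Str

set_option autoImplicit false

/-!
P333: checks of steps of the greedy algorithm.
-/

namespace Vale.Agent.P333.R3.H641.K8

open Vale.Agent.P333.H476.Nm

theorem ok12 : stepOk s40 s41 1326
    [m11, m10, m9, m7, m5, m3, m1, s0, s1, s2, s3, s4, s5, s6, s7, s8, s9, s10, s11, s12, s13, s14, s15, s16, s17, s18, s19, s32, s33, s34, s35, s36, s37, s38, s39] = true := by
  decide +kernel

theorem e12 : mrg s40 s41 1326 = m12 := by
  decide +kernel

theorem ok14 : stepOk m12 m10 1320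
    [m13, m11, m9, m7, m5, m3, m1, s0, s1, s2, s3, s4, s5, s6, s7, s8, s9, s10, s11, s12, s13, s14, s15, s18, s19, s32, s33, s34, s35, s36, s37, s38, s39] = true := by
  decide +kernel

theorem e14 : mrg m12 m10 1320 = m14 := by
  decide +kernel

theorem ok30 : stepOk m28 m26 1218
    [m29, m27, m25, m23, m21, m19, m17, m15, m13, m11, m9, m7, m5, m3, m1, s2, s3] = true := by
  decide +kernel

theorem e30 : mrg m28 m26 1218 = m30 := by
  decide +kernel

end Vale.Agent.P333.R3.H641.K8
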