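import Vale.Agent.P333.R3.H641.K8.Str

set_option autoImplicit false

/-!
P333: checks of steps of the greedy algorithm.
-/

namespace Vale.Agent.P333.R3.H641.K8

open Vale.Agent.P333.H476.Nm

theorem ok7 : stepOk s26 s27 1366
    [m6, m5, m3, m1, s0, s1, s2, s3, s4, s5, s6, s7, s8, s9, s10, s11, s12, s13, s14, s15, s16, s17, s18, s19, s20, s21, s22, s23, s32, s33, s34, s35, s36, s37, s38, s39, s40, s41, s42, s43] = true := by
  decide +kernel

theorem e7 : mrg s26 s27 1366 = m7 := by
  decide +kernel

theorem ok13 : stepOk s16 s17 1324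
    [m12, m11, m10, m9, m7, m5, m3, m1, s0, s1, s2, s3, s4, s5, s6, s7, s8, s9, s10, s11, s12, s13, s14, s15, s18, s19, s32, s33, s34, s35, s36, s37, s38, s39] = true := by
  decide +kernel

theorem e13 : mrg s16 s17 1324 = m13 := by
  decide +kernel

theorem ok23 : stepOk s10 s11 1270
    [m22, m21, m19, m17, m15, m13, m11, m9, m7, m5, m3, m1, s0, s1, s2, s3, s4, s5, s6, s7, s32, s33, s34, s35] = true := by
  decide +kernel

theorem e23 : mrg s10 s11 1270 = m23 := by
  decide +kernel

end Vale.Agent.P333.R3.H641.K8
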