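import Vale.Agent.P333.R3.H641.K8.Str

set_option autoImplicit false

/-!
P333: checks of steps of the greedy algorithm.
-/

namespace Vale.Agent.P333.R3.H641.K8

open Vale.Agent.P333.H476.Nm

theorem ok26 : stepOk m24 m22 1248
    [m25, m23, m21, m19, m17, m15, m13, m11, m9, m7, m5, m3, m1, s0, s1, s2, s3, s6, s7, s32, s33] = true := by
  decide +kernel

theorem e26 : mrg m24 m22 1248 = m26 := by
  decide +kernel

theorem ok34 : stepOk m15 m13 318
    [m33, m32, m31, m30, m29, m27, m25, m23, m21, m19, m17, m3, m1] = true := by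
  decide +kernel

theorem e34 : mrg m15 m13 318 = m34 := by
  decide +kernel

end Vale.Agent.P333.R3.H641.K8
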