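import Vale.Agent.P333.R3.H641.K8.Str

set_option autoImplicit false

/-!
P333: checks of steps of the greedy algorithm.
-/

namespace Vale.Agent.P333.R3.H641.K8

open Vale.Agent.P333.H476.Nm

theorem ok19 : stepOk s14 s15 1294
    [m18, m17, m15, m13, m11, m9, m7, m5, m3, m1, s0, s1, s2, s3, s4, s5, s6, s7, s8, s9, s10, s11, s32, s33, s34, s35, s36, s37] = true := by
  decide +kernel

theorem e19 : mrg s14 s15 1294 = m19 := by
  decide +kernel

theorem ok37 : stepOk m27 m25 300
    [m36, m35, m34, m33, m32, m31, m30, m29, m3, m1] = true := by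
  decide +kernel

theorem e37 : mrg m27 m25 300 = m37 := by
  decide +kernel

end Vale.Agent.P333.R3.H641.K8
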