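import Vale.Agent.P333.R3.H641.K8.Str

set_option autoImplicit false

/-!
P333: checks of steps of the greedy algorithm.
-/

namespace Vale.Agent.P333.R3.H641.K8

open Vale.Agent.P333.H476.Nm

theorem ok20 : stepOk s36 s37 1278
    [m19, m18, m17, m15, m13, m11, m9, m7, m5, m3, m1, s0, s1, s2, s3, s4, s5, s6, s7, s8, s9, s10, s11, s32, s33, s34, s35] = true := by
  decide +kernel

theorem e20 : mrg s36 s37 1278 = m20 := by
  decide +kernel

theorem ok35 : stepOk m19 m17 312
    [m34, m33, m32, m31, m30, m29, m27, m25, m23, m21, m3, m1] = true := by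
  decide +kernel

theorem e35 : mrg m19 m17 312 = m35 := by
  decide +kernel

end Vale.Agent.P333.R3.H641.K8
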