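import Vale.Agent.P333.R3.H641.K8.Str

set_option autoImplicit false

/-!
P333: checks of steps of the greedy algorithm.
-/

namespace Vale.Agent.P333.R3.H641.K8

open Vale.Agent.P333.H476.Nm

theorem ok21 : stepOk s8 s9 1276
    [m20, m19, m18, m17, m15, m13, m11, m9, m7, m5, m3, m1, s0, s1, s2, s3, s4, s5, s6, s7, s10, s11, s32, s33, s34, s35] = true := by
  decide +kernel

theorem e21 : mrg s8 s9 1276 = m21 := by
  decide +kernel

theorem ok36 : stepOk m23 m21 306
    [m35, m34, m33, m32, m31, m30, m29, m27, m25, m3, m1] = true := by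
  decide +kernel

theorem e36 : mrg m23 m21 306 = m36 := by
  decide +kernel

end Vale.Agent.P333.R3.H641.K8
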