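import Vale.Agent.P333.R3.H641.K8.Str

set_option autoImplicit false

/-!
P333: checks of steps of the greedy algorithm.
-/

namespace Vale.Agent.P333.R3.H641.K8

open Vale.Agent.P333.H476.Nm

theorem ok6 : stepOk m4 m2 1368
    [m5, m3, m1, s0, s1, s2, s3, s4, s5, s6, s7, s8, s9, s10, s11, s12, s13, s14, s15, s16, s17, s18, s19, s20, s21, s22, s23, s26, s27, s32, s33, s34, s35, s36, s37, s38, s39, s40, s41, s42, s43] = true := by
  decide +kernel

theorem e6 : mrg m4 m2 1368 = m6 := by
  decide +kernel

theorem ok22 : stepOk m20 m18 1272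
    [m21, m19, m17, m15, m13, m11, m9, m7, m5, m3, m1, s0, s1, s2, s3, s4, s5, s6, s7, s10, s11, s32, s33, s34, s35] = true := by
  decide +kernel

theorem e22 : mrg m20 m18 1272 = m22 := by
  decide +kernel

theorem ok27 : stepOk s6 s7 1246
    [m26, m25, m23, m21, m19, m17, m15, m13, m11, m9, m7, m5, m3, m1, s0, s1, s2, s3, s32, s33] = true := by
  decide +kernel

theorem e27 : mrg s6 s7 1246 = m27 := by
  decide +kernel

end Vale.Agent.P333.R3.H641.K8
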