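import Vale.Agent.P333.R3.H641.K8.Str

set_option autoImplicit false

/-!
P333: checks of steps of the greedy algorithm.
-/

namespace Vale.Agent.P333.R3.H641.K8

open Vale.Agent.P333.H476.Nm

theorem ok5 : stepOk s24 s25 1372
    [m4, m3, m2, m1, s0, s1, s2, s3, s4, s5, s6, s7, s8, s9, s10, s11, s12, s13, s14, s15, s16, s17, s18, s19, s20, s21, s22, s23, s26, s27, s32, s33, s34, s35, s36, s37, s38, s39, s40, s41, s42, s43] = true := by
  decide +kernel

theorem e5 : mrg s24 s25 1372 = m5 := by
  decide +kernel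

theorem ok15 : stepOk s18 s19 1318
    [m14, m13, m11, m9, m7, m5, m3, m1, s0, s1, s2, s3, s4, s5, s6, s7, s8, s9, s10, s11, s12, s13, s14, s15, s32, s33, s34, s35, s36, s37, s38, s39] = true := by
  decide +kernel

theorem e15 : mrg s18 s19 1318 = m15 := by
  decide +kernel

theorem ok29 : stepOk s0 s1 1222
    [m28, m27, m26, m25, m23, m21, m19, m17, m15, m13, m11, m9, m7, m5, m3, m1, s2, s3] = true := by
  decide +kernel

theorem e29 : mrg s0 s1 1222 = m29 := by
  decide +kernel

end Vale.Agent.P333.R3.H641.K8
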