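import Vale.Agent.P333.R3.H641.K8.Str

set_option autoImplicit false

/-!
P333: checks of steps of the greedy algorithm.
-/

namespace Vale.Agent.P333.R3.H641.K8

open Vale.Agent.P333.H476.Nm

theorem ok4 : stepOk s44 s45 1374
    [m3, m2, m1, s0, s1, s2, s3, s4, s5, s6, s7, s8, s9, s10, s11, s12, s13, s14, s15, s16, s17, s18, s19, s20, s21, s22, s23, s24, s25, s26, s27, s32, s33, s34, s35, s36, s37, s38, s39, s40, s41, s42, s43] = true := by
  decide +kernel

theorem e4 : mrg s44 s45 1374 = m4 := by
  decide +kernel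

theorem ok16 : stepOk s38 s39 1302
    [m15, m14, m13, m11, m9, m7, m5, m3, m1, s0, s1, s2, s3, s4, s5, s6, s7, s8, s9, s10, s11, s12, s13, s14, s15, s32, s33, s34, s35, s36, s37] = true := by
  decide +kernel

theorem e16 : mrg s38 s39 1302 = m16 := by
  decide +kernel

end Vale.Agent.P333.R3.H641.K8
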