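import Vale.Agent.P333.R3.H641.K8.St0
import Vale.Agent.P333.R3.H641.K8.St1
import Vale.Agent.P333.R3.H641.K8.St2
import Vale.Agent.P333.R3.H641.K8.St3
import Vale.Agent.P333.R3.H641.K8.St4
import Vale.Agent.P333.R3.H641.K8.St5
import Vale.Agent.P333.R3.H641.K8.St6
import Vale.Agent.P333.R3.H641.K8.St7
import Vale.Agent.P333.R3.H641.K8.St8
import Vale.Agent.P333.R3.H641.K8.St9
import Vale.Agent.P333.R3.H641.K8.St10
import Vale.Agent.P333.R3.H641.K8.St11
import Vale.Agent.P333.R3.H641.K8.St12
import Vale.Agent.P333.R3.H641.K8.St13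
import Vale.Agent.P333.R3.H641.K8.St14
import Vale.Agent.P333.R3.H641.K8.St15
import Vale.Agent.P333.R3.H641.K8.Fr

set_option autoImplicit false

/-!
P333: a family with eight levels: every greedy output is longer than 2.12 OPT.
-/

namespace Vale.Agent.P333.R3.H641.K8

open Vale.Agent.P333.H476.Nm

theorem all38 : All
    [m37, m36, m35, m34, m33, m32, m31, m30, m29, m3, m1]
    36743 := by
  have h : All
      (m31 :: m29 :: [m37, m36, m35, m34, m33, m32, m30, m3, m1])
      36743 := by
    refine all_step ok38 ?_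
    rw [e38]
    exact all39
  refine h.perm ?_
  exact (List.perm_middle (l₁ := [m37, m36, m35, m34, m33, m32])
      (a := m31)
      (l₂ := [m30, m29, m3, m1])).trans
      ((List.perm_middle (l₁ := [m37, m36, m35, m34, m33, m32, m30])
      (a := m29)
      (l₂ := [m3, m1])).cons m31)

theorem all37 : All
    [m36, m35, m34, m33, m32, m31, m30, m29, m27, m25, m3, m1]
    36743 := by
  have h : All
      (m27 :: m25 :: [m36, m35, m34, m33, m32, m31, m30, m29, m3, m1])
      36743 := by
    refine all_step ok37 ?_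
    rw [e37]
    exact all38
  refine h.perm ?_
  exact (List.perm_middle (l₁ := [m36, m35, m34, m33, m32, m31, m30, m29])
      (a := m27)
      (l₂ := [m25, m3, m1])).trans
      ((List.perm_middle (l₁ := [m36, m35, m34, m33, m32, m31, m30, m29])
      (a := m25)
      (l₂ := [m3, m1])).cons m27)

theorem all36 : All
    [m35, m34, m33, m32, m31, m30, m29, m27, m25, m23, m21, m3, m1]
    36743 := by
  have h : All
      (m23 :: m21 :: [m35, m34, m33, m32, m31, m30, m29, m27, m25, m3, m1])
      36743 := by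
    refine all_step ok36 ?_
    rw [e36]
    exact all37
  refine h.perm ?_
  exact (List.perm_middle (l₁ := [m35, m34, m33, m32, m31, m30, m29, m27, m25])
      (a := m23)
      (l₂ := [m21, m3, m1])).trans
      ((List.perm_middle (l₁ := [m35, m34, m33, m32, m31, m30, m29, m27, m25])
      (a := m21)
      (l₂ := [m3, m1])).cons m23)

theorem all35 : All
    [m34, m33, m32, m31, m30, m29, m27, m25, m23, m21, m19, m17, m3, m1]
    36743 := by
  have h : All
      (m19 :: m17 :: [m34, m33, m32, m31, m30, m29, m27, m25, m23, m21, m3, m1])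
      36743 := by
    refine all_step ok35 ?_
    rw [e35]
    exact all36
  refine h.perm ?_
  exact (List.perm_middle (l₁ := [m34, m33, m32, m31, m30, m29, m27, m25, m23, m21])
      (a := m19)
      (l₂ := [m17, m3, m1])).trans
      ((List.perm_middle (l₁ := [m34, m33, m32, m31, m30, m29, m27, m25, m23, m21])
      (a := m17)
      (l₂ := [m3, m1])).cons m19)

theorem all34 : All
    [m33, m32, m31, m30, m29, m27, m25, m23, m21, m19, m17, m15, m13, m3, m1]
    36743 := by
  have h : All
      (m15 :: m13 :: [m33, m32, m31, m30, m29, m27, m25, m23, m21, m19, m17, m3, m1])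
      36743 := by
    refine all_step ok34 ?_
    rw [e34]
    exact all35
  refine h.perm ?_
  exact (List.perm_middle (l₁ := [m33, m32, m31, m30, m29, m27, m25, m23, m21, m19, m17])
      (a := m15)
      (l₂ := [m13, m3, m1])).trans
      ((List.perm_middle (l₁ := [m33, m32, m31, m30, m29, m27, m25, m23, m21, m19, m17])
      (a := m13)
      (l₂ := [m3, m1])).cons m15)

theorem all33 : All
    [m32, m31, m30, m29, m27, m25, m23, m21, m19, m17, m15, m13, m11, m9, m3, m1]
    36743 := by
  have h : All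
      (m11 :: m9 :: [m32, m31, m30, m29, m27, m25, m23, m21, m19, m17, m15, m13, m3, m1])
      36743 := by
    refine all_step ok33 ?_
    rw [e33]
    exact all34
  refine h.perm ?_
  exact (List.perm_middle (l₁ := [m32, m31, m30, m29, m27, m25, m23, m21, m19, m17, m15, m13])
      (a := m11)
      (l₂ := [m9, m3, m1])).trans
      ((List.perm_middle (l₁ := [m32, m31, m30, m29, m27, m25, m23, m21, m19, m17, m15, m13])
      (a := m9)
      (l₂ := [m3, m1])).cons m11)

theorem all32 : All
    [m31, m30, m29, m27, m25, m23, m21, m19, m17, m15, m13, m11, m9, m7, m5, m3, m1]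
    36743 := by
  have h : All
      (m7 :: m5 :: [m31, m30, m29, m27, m25, m23, m21, m19, m17, m15, m13, m11, m9, m3, m1])
      36743 := by
    refine all_step ok32 ?_
    rw [e32]
    exact all33
  refine h.perm ?_
  exact (List.perm_middle (l₁ := [m31, m30, m29, m27, m25, m23, m21, m19, m17, m15, m13, m11, m9])
      (a := m7)
      (l₂ := [m5, m3, m1])).trans
      ((List.perm_middle (l₁ := [m31, m30, m29, m27, m25, m23, m21, m19, m17, m15, m13, m11, m9])
      (a := m5)
      (l₂ := [m3, m1])).cons m7)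

theorem all31 : All
    [m30, m29, m27, m25, m23, m21, m19, m17, m15, m13, m11, m9, m7, m5, m3, m1, s2, s3]
    36743 := by
  have h : All
      (s2 :: s3 :: [m30, m29, m27, m25, m23, m21, m19, m17, m15, m13, m11, m9, m7, m5, m3, m1])
      36743 := by
    refine all_step ok31 ?_
    rw [e31]
    exact all32
  refine h.perm ?_
  exact (List.perm_middle (l₁ := [m30, m29, m27, m25, m23, m21, m19, m17, m15, m13, m11, m9, m7, m5, m3, m1])
      (a := s2)
      (l₂ := [s3])).trans
      ((List.perm_middle (l₁ := [m30, m29, m27, m25, m23, m21, m19, m17, m15, m13, m11, m9, m7, m5, m3, m1])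
      (a := s3)
      (l₂ := [])).cons s2)

theorem all30 : All
    [m29, m28, m27, m26, m25, m23, m21, m19, m17, m15, m13, m11, m9, m7, m5, m3, m1, s2, s3]
    36743 := by
  have h : All
      (m28 :: m26 :: [m29, m27, m25, m23, m21, m19, m17, m15, m13, m11, m9, m7, m5, m3, m1, s2, s3])
      36743 := by
    refine all_step ok30 ?_
    rw [e30]
    exact all31
  refine h.perm ?_
  exact (List.perm_middle (l₁ := [m29])
      (a := m28)
      (l₂ := [m27, m26, m25, m23, m21, m19, m17, m15, m13, m11, m9, m7, m5, m3, m1, s2, s3])).trans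
      ((List.perm_middle (l₁ := [m29, m27])
      (a := m26)
      (l₂ := [m25, m23, m21, m19, m17, m15, m13, m11, m9, m7, m5, m3, m1, s2, s3])).cons m28)

theorem all29 : All
    [m28, m27, m26, m25, m23, m21, m19, m17, m15, m13, m11, m9, m7, m5, m3, m1, s0, s1, s2, s3]
    36743 := by
  have h : All
      (s0 :: s1 :: [m28, m27, m26, m25, m23, m21, m19, m17, m15, m13, m11, m9, m7, m5, m3, m1, s2, s3])
      36743 := by
    refine all_step ok29 ?_
    rw [e29]
    exact all30
  refine h.perm ?_
  exact (List.perm_middle (l₁ := [m28, m27, m26, m25, m23, m21, m19, m17, m15, m13, m11, m9, m7, m5, m3, m1])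
      (a := s0)
      (l₂ := [s1, s2, s3])).trans
      ((List.perm_middle (l₁ := [m28, m27, m26, m25, m23, m21, m19, m17, m15, m13, m11, m9, m7, m5, m3, m1])
      (a := s1)
      (l₂ := [s2, s3])).cons s0)

theorem all28 : All
    [m27, m26, m25, m23, m21, m19, m17, m15, m13, m11, m9, m7, m5, m3, m1, s0, s1, s2, s3, s32, s33]
    36743 := by
  have h : All
      (s32 :: s33 :: [m27, m26, m25, m23, m21, m19, m17, m15, m13, m11, m9, m7, m5, m3, m1, s0, s1, s2, s3])
      36743 := by
    refine all_step ok28 ?_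
    rw [e28]
    exact all29
  refine h.perm ?_
  exact (List.perm_middle (l₁ := [m27, m26, m25, m23, m21, m19, m17, m15, m13, m11, m9, m7, m5, m3, m1, s0, s1, s2, s3])
      (a := s32)
      (l₂ := [s33])).trans
      ((List.perm_middle (l₁ := [m27, m26, m25, m23, m21, m19, m17, m15, m13, m11, m9, m7, m5, m3, m1, s0, s1, s2, s3])
      (a := s33)
      (l₂ := [])).cons s32)

theorem all27 : All
    [m26, m25, m23, m21, m19, m17, m15, m13, m11, m9, m7, m5, m3, m1, s0, s1, s2, s3, s6, s7, s32, s33]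
    36743 := by
  have h : All
      (s6 :: s7 :: [m26, m25, m23, m21, m19, m17, m15, m13, m11, m9, m7, m5, m3, m1, s0, s1, s2, s3, s32, s33])
      36743 := by
    refine all_step ok27 ?_
    rw [e27]
    exact all28
  refine h.perm ?_
  exact (List.perm_middle (l₁ := [m26, m25, m23, m21, m19, m17, m15, m13, m11, m9, m7, m5, m3, m1, s0, s1, s2, s3])
      (a := s6)
      (l₂ := [s7, s32, s33])).trans
      ((List.perm_middle (l₁ := [m26, m25, m23, m21, m19, m17, m15, m13, m11, m9, m7, m5, m3, m1, s0, s1, s2, s3])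
      (a := s7)
      (l₂ := [s32, s33])).cons s6)

theorem all26 : All
    [m25, m24, m23, m22, m21, m19, m17, m15, m13, m11, m9, m7, m5, m3, m1, s0, s1, s2, s3, s6, s7, s32, s33]
    36743 := by
  have h : All
      (m24 :: m22 :: [m25, m23, m21, m19, m17, m15, m13, m11, m9, m7, m5, m3, m1, s0, s1, s2, s3, s6, s7, s32, s33])
      36743 := by
    refine all_step ok26 ?_
    rw [e26]
    exact all27
  refine h.perm ?_
  exact (List.perm_middle (l₁ := [m25])
      (a := m24)
      (l₂ := [m23, m22, m21, m19, m17, m15, m13, m11, m9, m7, m5, m3, m1, s0, s1, s2, s3, s6, s7, s32, s33])).trans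
      ((List.perm_middle (l₁ := [m25, m23])
      (a := m22)
      (l₂ := [m21, m19, m17, m15, m13, m11, m9, m7, m5, m3, m1, s0, s1, s2, s3, s6, s7, s32, s33])).cons m24)

theorem all25 : All
    [m24, m23, m22, m21, m19, m17, m15, m13, m11, m9, m7, m5, m3, m1, s0, s1, s2, s3, s4, s5, s6, s7, s32, s33]
    36743 := by
  have h : All
      (s4 :: s5 :: [m24, m23, m22, m21, m19, m17, m15, m13, m11, m9, m7, m5, m3, m1, s0, s1, s2, s3, s6, s7, s32, s33])
      36743 := by
    refine all_step ok25 ?_
    rw [e25]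
    exact all26
  refine h.perm ?_
  exact (List.perm_middle (l₁ := [m24, m23, m22, m21, m19, m17, m15, m13, m11, m9, m7, m5, m3, m1, s0, s1, s2, s3])
      (a := s4)
      (l₂ := [s5, s6, s7, s32, s33])).trans
      ((List.perm_middle (l₁ := [m24, m23, m22, m21, m19, m17, m15, m13, m11, m9, m7, m5, m3, m1, s0, s1, s2, s3])
      (a := s5)
      (l₂ := [s6, s7, s32, s33])).cons s4)

theorem all24 : All
    [m23, m22, m21, m19, m17, m15, m13, m11, m9, m7, m5, m3, m1, s0, s1, s2, s3, s4, s5, s6, s7, s32, s33, s34, s35]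
    36743 := by
  have h : All
      (s34 :: s35 :: [m23, m22, m21, m19, m17, m15, m13, m11, m9, m7, m5, m3, m1, s0, s1, s2, s3, s4, s5, s6, s7, s32, s33])
      36743 := by
    refine all_step ok24 ?_
    rw [e24]
    exact all25
  refine h.perm ?_
  exact (List.perm_middle (l₁ := [m23, m22, m21, m19, m17, m15, m13, m11, m9, m7, m5, m3, m1, s0, s1, s2, s3, s4, s5, s6, s7, s32, s33])
      (a := s34)
      (l₂ := [s35])).trans
      ((List.perm_middle (l₁ := [m23, m22, m21, m19, m17, m15, m13, m11, m9, m7, m5, m3, m1, s0, s1, s2, s3, s4, s5, s6, s7, s32, s33])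
      (a := s35)
      (l₂ := [])).cons s34)

theorem all23 : All
    [m22, m21, m19, m17, m15, m13, m11, m9, m7, m5, m3, m1, s0, s1, s2, s3, s4, s5, s6, s7, s10, s11, s32, s33, s34, s35]
    36743 := by
  have h : All
      (s10 :: s11 :: [m22, m21, m19, m17, m15, m13, m11, m9, m7, m5, m3, m1, s0, s1, s2, s3, s4, s5, s6, s7, s32, s33, s34, s35])
      36743 := by
    refine all_step ok23 ?_
    rw [e23]
    exact all24
  refine h.perm ?_
  exact (List.perm_middle (l₁ := [m22, m21, m19, m17, m15, m13, m11, m9, m7, m5, m3, m1, s0, s1, s2, s3, s4, s5, s6, s7])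
      (a := s10)
      (l₂ := [s11, s32, s33, s34, s35])).trans
      ((List.perm_middle (l₁ := [m22, m21, m19, m17, m15, m13, m11, m9, m7, m5, m3, m1, s0, s1, s2, s3, s4, s5, s6, s7])
      (a := s11)
      (l₂ := [s32, s33, s34, s35])).cons s10)

theorem all22 : All
    [m21, m20, m19, m18, m17, m15, m13, m11, m9, m7, m5, m3, m1, s0, s1, s2, s3, s4, s5, s6, s7, s10, s11, s32, s33, s34, s35]
    36743 := by
  have h : All
      (m20 :: m18 :: [m21, m19, m17, m15, m13, m11, m9, m7, m5, m3, m1, s0, s1, s2, s3, s4, s5, s6, s7, s10, s11, s32, s33, s34, s35])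
      36743 := by
    refine all_step ok22 ?_
    rw [e22]
    exact all23
  refine h.perm ?_
  exact (List.perm_middle (l₁ := [m21])
      (a := m20)
      (l₂ := [m19, m18, m17, m15, m13, m11, m9, m7, m5, m3, m1, s0, s1, s2, s3, s4, s5, s6, s7, s10, s11, s32, s33, s34, s35])).trans
      ((List.perm_middle (l₁ := [m21, m19])
      (a := m18)
      (l₂ := [m17, m15, m13, m11, m9, m7, m5, m3, m1, s0, s1, s2, s3, s4, s5, s6, s7, s10, s11, s32, s33, s34, s35])).cons m20)

theorem all21 : All
    [m20, m19, m18, m17, m15, m13, m11, m9, m7, m5, m3, m1, s0, s1, s2, s3, s4, s5, s6, s7, s8, s9, s10, s11, s32, s33, s34, s35]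
    36743 := by
  have h : All
      (s8 :: s9 :: [m20, m19, m18, m17, m15, m13, m11, m9, m7, m5, m3, m1, s0, s1, s2, s3, s4, s5, s6, s7, s10, s11, s32, s33, s34, s35])
      36743 := by
    refine all_step ok21 ?_
    rw [e21]
    exact all22
  refine h.perm ?_
  exact (List.perm_middle (l₁ := [m20, m19, m18, m17, m15, m13, m11, m9, m7, m5, m3, m1, s0, s1, s2, s3, s4, s5, s6, s7])
      (a := s8)
      (l₂ := [s9, s10, s11, s32, s33, s34, s35])).trans
      ((List.perm_middle (l₁ := [m20, m19, m18, m17, m15, m13, m11, m9, m7, m5, m3, m1, s0, s1, s2, s3, s4, s5, s6, s7])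
      (a := s9)
      (l₂ := [s10, s11, s32, s33, s34, s35])).cons s8)

theorem all20 : All
    [m19, m18, m17, m15, m13, m11, m9, m7, m5, m3, m1, s0, s1, s2, s3, s4, s5, s6, s7, s8, s9, s10, s11, s32, s33, s34, s35, s36, s37]
    36743 := by
  have h : All
      (s36 :: s37 :: [m19, m18, m17, m15, m13, m11, m9, m7, m5, m3, m1, s0, s1, s2, s3, s4, s5, s6, s7, s8, s9, s10, s11, s32, s33, s34, s35])
      36743 := by
    refine all_step ok20 ?_
    rw [e20]
    exact all21
  refine h.perm ?_
  exact (List.perm_middle (l₁ := [m19, m18, m17, m15, m13, m11, m9, m7, m5, m3, m1, s0, s1, s2, s3, s4, s5, s6, s7, s8, s9, s10, s11, s32, s33, s34, s35])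
      (a := s36)
      (l₂ := [s37])).trans
      ((List.perm_middle (l₁ := [m19, m18, m17, m15, m13, m11, m9, m7, m5, m3, m1, s0, s1, s2, s3, s4, s5, s6, s7, s8, s9, s10, s11, s32, s33, s34, s35])
      (a := s37)
      (l₂ := [])).cons s36)

theorem all19 : All
    [m18, m17, m15, m13, m11, m9, m7, m5, m3, m1, s0, s1, s2, s3, s4, s5, s6, s7, s8, s9, s10, s11, s14, s15, s32, s33, s34, s35, s36, s37]
    36743 := by
  have h : All
      (s14 :: s15 :: [m18, m17, m15, m13, m11, m9, m7, m5, m3, m1, s0, s1, s2, s3, s4, s5, s6, s7, s8, s9, s10, s11, s32, s33, s34, s35, s36, s37])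
      36743 := by
    refine all_step ok19 ?_
    rw [e19]
    exact all20
  refine h.perm ?_
  exact (List.perm_middle (l₁ := [m18, m17, m15, m13, m11, m9, m7, m5, m3, m1, s0, s1, s2, s3, s4, s5, s6, s7, s8, s9, s10, s11])
      (a := s14)
      (l₂ := [s15, s32, s33, s34, s35, s36, s37])).trans
      ((List.perm_middle (l₁ := [m18, m17, m15, m13, m11, m9, m7, m5, m3, m1, s0, s1, s2, s3, s4, s5, s6, s7, s8, s9, s10, s11])
      (a := s15)
      (l₂ := [s32, s33, s34, s35, s36, s37])).cons s14)

theorem all18 : All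
    [m17, m16, m15, m14, m13, m11, m9, m7, m5, m3, m1, s0, s1, s2, s3, s4, s5, s6, s7, s8, s9, s10, s11, s14, s15, s32, s33, s34, s35, s36, s37]
    36743 := by
  have h : All
      (m16 :: m14 :: [m17, m15, m13, m11, m9, m7, m5, m3, m1, s0, s1, s2, s3, s4, s5, s6, s7, s8, s9, s10, s11, s14, s15, s32, s33, s34, s35, s36, s37])
      36743 := by
    refine all_step ok18 ?_
    rw [e18]
    exact all19
  refine h.perm ?_
  exact (List.perm_middle (l₁ := [m17])
      (a := m16)
      (l₂ := [m15, m14, m13, m11, m9, m7, m5, m3, m1, s0, s1, s2, s3, s4, s5, s6, s7, s8, s9, s10, s11, s14, s15, s32, s33, s34, s35, s36, s37])).trans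
      ((List.perm_middle (l₁ := [m17, m15])
      (a := m14)
      (l₂ := [m13, m11, m9, m7, m5, m3, m1, s0, s1, s2, s3, s4, s5, s6, s7, s8, s9, s10, s11, s14, s15, s32, s33, s34, s35, s36, s37])).cons m16)

theorem all17 : All
    [m16, m15, m14, m13, m11, m9, m7, m5, m3, m1, s0, s1, s2, s3, s4, s5, s6, s7, s8, s9, s10, s11, s12, s13, s14, s15, s32, s33, s34, s35, s36, s37]
    36743 := by
  have h : All
      (s12 :: s13 :: [m16, m15, m14, m13, m11, m9, m7, m5, m3, m1, s0, s1, s2, s3, s4, s5, s6, s7, s8, s9, s10, s11, s14, s15, s32, s33, s34, s35, s36, s37])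
      36743 := by
    refine all_step ok17 ?_
    rw [e17]
    exact all18
  refine h.perm ?_
  exact (List.perm_middle (l₁ := [m16, m15, m14, m13, m11, m9, m7, m5, m3, m1, s0, s1, s2, s3, s4, s5, s6, s7, s8, s9, s10, s11])
      (a := s12)
      (l₂ := [s13, s14, s15, s32, s33, s34, s35, s36, s37])).trans
      ((List.perm_middle (l₁ := [m16, m15, m14, m13, m11, m9, m7, m5, m3, m1, s0, s1, s2, s3, s4, s5, s6, s7, s8, s9, s10, s11])
      (a := s13)
      (l₂ := [s14, s15, s32, s33, s34, s35, s36, s37])).cons s12)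

theorem all16 : All
    [m15, m14, m13, m11, m9, m7, m5, m3, m1, s0, s1, s2, s3, s4, s5, s6, s7, s8, s9, s10, s11, s12, s13, s14, s15, s32, s33, s34, s35, s36, s37, s38, s39]
    36743 := by
  have h : All
      (s38 :: s39 :: [m15, m14, m13, m11, m9, m7, m5, m3, m1, s0, s1, s2, s3, s4, s5, s6, s7, s8, s9, s10, s11, s12, s13, s14, s15, s32, s33, s34, s35, s36, s37])
      36743 := by
    refine all_step ok16 ?_
    rw [e16]
    exact all17
  refine h.perm ?_
  exact (List.perm_middle (l₁ := [m15, m14, m13, m11, m9, m7, m5, m3, m1, s0, s1, s2, s3, s4, s5, s6, s7, s8, s9, s10, s11, s12, s13, s14, s15, s32, s33, s34, s35, s36, s37])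
      (a := s38)
      (l₂ := [s39])).trans
      ((List.perm_middle (l₁ := [m15, m14, m13, m11, m9, m7, m5, m3, m1, s0, s1, s2, s3, s4, s5, s6, s7, s8, s9, s10, s11, s12, s13, s14, s15, s32, s33, s34, s35, s36, s37])
      (a := s39)
      (l₂ := [])).cons s38)

theorem all15 : All
    [m14, m13, m11, m9, m7, m5, m3, m1, s0, s1, s2, s3, s4, s5, s6, s7, s8, s9, s10, s11, s12, s13, s14, s15, s18, s19, s32, s33, s34, s35, s36, s37, s38, s39]
    36743 := by
  have h : All
      (s18 :: s19 :: [m14, m13, m11, m9, m7, m5, m3, m1, s0, s1, s2, s3, s4, s5, s6, s7, s8, s9, s10, s11, s12, s13, s14, s15, s32, s33, s34, s35, s36, s37, s38, s39])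
      36743 := by
    refine all_step ok15 ?_
    rw [e15]
    exact all16
  refine h.perm ?_
  exact (List.perm_middle (l₁ := [m14, m13, m11, m9, m7, m5, m3, m1, s0, s1, s2, s3, s4, s5, s6, s7, s8, s9, s10, s11, s12, s13, s14, s15])
      (a := s18)
      (l₂ := [s19, s32, s33, s34, s35, s36, s37, s38, s39])).trans
      ((List.perm_middle (l₁ := [m14, m13, m11, m9, m7, m5, m3, m1, s0, s1, s2, s3, s4, s5, s6, s7, s8, s9, s10, s11, s12, s13, s14, s15])
      (a := s19)
      (l₂ := [s32, s33, s34, s35, s36, s37, s38, s39])).cons s18)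

theorem all14 : All
    [m13, m12, m11, m10, m9, m7, m5, m3, m1, s0, s1, s2, s3, s4, s5, s6, s7, s8, s9, s10, s11, s12, s13, s14, s15, s18, s19, s32, s33, s34, s35, s36, s37, s38, s39]
    36743 := by
  have h : All
      (m12 :: m10 :: [m13, m11, m9, m7, m5, m3, m1, s0, s1, s2, s3, s4, s5, s6, s7, s8, s9, s10, s11, s12, s13, s14, s15, s18, s19, s32, s33, s34, s35, s36, s37, s38, s39])
      36743 := by
    refine all_step ok14 ?_
    rw [e14]
    exact all15
  refine h.perm ?_
  exact (List.perm_middle (l₁ := [m13])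
      (a := m12)
      (l₂ := [m11, m10, m9, m7, m5, m3, m1, s0, s1, s2, s3, s4, s5, s6, s7, s8, s9, s10, s11, s12, s13, s14, s15, s18, s19, s32, s33, s34, s35, s36, s37, s38, s39])).trans
      ((List.perm_middle (l₁ := [m13, m11])
      (a := m10)
      (l₂ := [m9, m7, m5, m3, m1, s0, s1, s2, s3, s4, s5, s6, s7, s8, s9, s10, s11, s12, s13, s14, s15, s18, s19, s32, s33, s34, s35, s36, s37, s38, s39])).cons m12)

theorem all13 : All
    [m12, m11, m10, m9, m7, m5, m3, m1, s0, s1, s2, s3, s4, s5, s6, s7, s8, s9, s10, s11, s12, s13, s14, s15, s16, s17, s18, s19, s32, s33, s34, s35, s36, s37, s38, s39]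
    36743 := by
  have h : All
      (s16 :: s17 :: [m12, m11, m10, m9, m7, m5, m3, m1, s0, s1, s2, s3, s4, s5, s6, s7, s8, s9, s10, s11, s12, s13, s14, s15, s18, s19, s32, s33, s34, s35, s36, s37, s38, s39])
      36743 := by
    refine all_step ok13 ?_
    rw [e13]
    exact all14
  refine h.perm ?_
  exact (List.perm_middle (l₁ := [m12, m11, m10, m9, m7, m5, m3, m1, s0, s1, s2, s3, s4, s5, s6, s7, s8, s9, s10, s11, s12, s13, s14, s15])
      (a := s16)
      (l₂ := [s17, s18, s19, s32, s33, s34, s35, s36, s37, s38, s39])).trans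
      ((List.perm_middle (l₁ := [m12, m11, m10, m9, m7, m5, m3, m1, s0, s1, s2, s3, s4, s5, s6, s7, s8, s9, s10, s11, s12, s13, s14, s15])
      (a := s17)
      (l₂ := [s18, s19, s32, s33, s34, s35, s36, s37, s38, s39])).cons s16)

theorem all12 : All
    [m11, m10, m9, m7, m5, m3, m1, s0, s1, s2, s3, s4, s5, s6, s7, s8, s9, s10, s11, s12, s13, s14, s15, s16, s17, s18, s19, s32, s33, s34, s35, s36, s37, s38, s39, s40, s41]
    36743 := by
  have h : All
      (s40 :: s41 :: [m11, m10, m9, m7, m5, m3, m1, s0, s1, s2, s3, s4, s5, s6, s7, s8, s9, s10, s11, s12, s13, s14, s15, s16, s17, s18, s19, s32, s33, s34, s35, s36, s37, s38, s39])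
      36743 := by
    refine all_step ok12 ?_
    rw [e12]
    exact all13
  refine h.perm ?_
  exact (List.perm_middle (l₁ := [m11, m10, m9, m7, m5, m3, m1, s0, s1, s2, s3, s4, s5, s6, s7, s8, s9, s10, s11, s12, s13, s14, s15, s16, s17, s18, s19, s32, s33, s34, s35, s36, s37, s38, s39])
      (a := s40)
      (l₂ := [s41])).trans
      ((List.perm_middle (l₁ := [m11, m10, m9, m7, m5, m3, m1, s0, s1, s2, s3, s4, s5, s6, s7, s8, s9, s10, s11, s12, s13, s14, s15, s16, s17, s18, s19, s32, s33, s34, s35, s36, s37, s38, s39])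
      (a := s41)
      (l₂ := [])).cons s40)

theorem all11 : All
    [m10, m9, m7, m5, m3, m1, s0, s1, s2, s3, s4, s5, s6, s7, s8, s9, s10, s11, s12, s13, s14, s15, s16, s17, s18, s19, s22, s23, s32, s33, s34, s35, s36, s37, s38, s39, s40, s41]
    36743 := by
  have h : All
      (s22 :: s23 :: [m10, m9, m7, m5, m3, m1, s0, s1, s2, s3, s4, s5, s6, s7, s8, s9, s10, s11, s12, s13, s14, s15, s16, s17, s18, s19, s32, s33, s34, s35, s36, s37, s38, s39, s40, s41])
      36743 := by
    refine all_step ok11 ?_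
    rw [e11]
    exact all12
  refine h.perm ?_
  exact (List.perm_middle (l₁ := [m10, m9, m7, m5, m3, m1, s0, s1, s2, s3, s4, s5, s6, s7, s8, s9, s10, s11, s12, s13, s14, s15, s16, s17, s18, s19])
      (a := s22)
      (l₂ := [s23, s32, s33, s34, s35, s36, s37, s38, s39, s40, s41])).trans
      ((List.perm_middle (l₁ := [m10, m9, m7, m5, m3, m1, s0, s1, s2, s3, s4, s5, s6, s7, s8, s9, s10, s11, s12, s13, s14, s15, s16, s17, s18, s19])
      (a := s23)
      (l₂ := [s32, s33, s34, s35, s36, s37, s38, s39, s40, s41])).cons s22)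

theorem all10 : All
    [m9, m8, m7, m6, m5, m3, m1, s0, s1, s2, s3, s4, s5, s6, s7, s8, s9, s10, s11, s12, s13, s14, s15, s16, s17, s18, s19, s22, s23, s32, s33, s34, s35, s36, s37, s38, s39, s40, s41]
    36743 := by
  have h : All
      (m8 :: m6 :: [m9, m7, m5, m3, m1, s0, s1, s2, s3, s4, s5, s6, s7, s8, s9, s10, s11, s12, s13, s14, s15, s16, s17, s18, s19, s22, s23, s32, s33, s34, s35, s36, s37, s38, s39, s40, s41])
      36743 := by
    refine all_step ok10 ?_
    rw [e10]
    exact all11
  refine h.perm ?_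
  exact (List.perm_middle (l₁ := [m9])
      (a := m8)
      (l₂ := [m7, m6, m5, m3, m1, s0, s1, s2, s3, s4, s5, s6, s7, s8, s9, s10, s11, s12, s13, s14, s15, s16, s17, s18, s19, s22, s23, s32, s33, s34, s35, s36, s37, s38, s39, s40, s41])).trans
      ((List.perm_middle (l₁ := [m9, m7])
      (a := m6)
      (l₂ := [m5, m3, m1, s0, s1, s2, s3, s4, s5, s6, s7, s8, s9, s10, s11, s12, s13, s14, s15, s16, s17, s18, s19, s22, s23, s32, s33, s34, s35, s36, s37, s38, s39, s40, s41])).cons m8)

theorem all9 : All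
    [m8, m7, m6, m5, m3, m1, s0, s1, s2, s3, s4, s5, s6, s7, s8, s9, s10, s11, s12, s13, s14, s15, s16, s17, s18, s19, s20, s21, s22, s23, s32, s33, s34, s35, s36, s37, s38, s39, s40, s41]
    36743 := by
  have h : All
      (s20 :: s21 :: [m8, m7, m6, m5, m3, m1, s0, s1, s2, s3, s4, s5, s6, s7, s8, s9, s10, s11, s12, s13, s14, s15, s16, s17, s18, s19, s22, s23, s32, s33, s34, s35, s36, s37, s38, s39, s40, s41])
      36743 := by
    refine all_step ok9 ?_
    rw [e9]
    exact all10
  refine h.perm ?_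
  exact (List.perm_middle (l₁ := [m8, m7, m6, m5, m3, m1, s0, s1, s2, s3, s4, s5, s6, s7, s8, s9, s10, s11, s12, s13, s14, s15, s16, s17, s18, s19])
      (a := s20)
      (l₂ := [s21, s22, s23, s32, s33, s34, s35, s36, s37, s38, s39, s40, s41])).trans
      ((List.perm_middle (l₁ := [m8, m7, m6, m5, m3, m1, s0, s1, s2, s3, s4, s5, s6, s7, s8, s9, s10, s11, s12, s13, s14, s15, s16, s17, s18, s19])
      (a := s21)
      (l₂ := [s22, s23, s32, s33, s34, s35, s36, s37, s38, s39, s40, s41])).cons s20)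

theorem all8 : All
    [m7, m6, m5, m3, m1, s0, s1, s2, s3, s4, s5, s6, s7, s8, s9, s10, s11, s12, s13, s14, s15, s16, s17, s18, s19, s20, s21, s22, s23, s32, s33, s34, s35, s36, s37, s38, s39, s40, s41, s42, s43]
    36743 := by
  have h : All
      (s42 :: s43 :: [m7, m6, m5, m3, m1, s0, s1, s2, s3, s4, s5, s6, s7, s8, s9, s10, s11, s12, s13, s14, s15, s16, s17, s18, s19, s20, s21, s22, s23, s32, s33, s34, s35, s36, s37, s38, s39, s40, s41])
      36743 := by
    refine all_step ok8 ?_
    rw [e8]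
    exact all9
  refine h.perm ?_
  exact (List.perm_middle (l₁ := [m7, m6, m5, m3, m1, s0, s1, s2, s3, s4, s5, s6, s7, s8, s9, s10, s11, s12, s13, s14, s15, s16, s17, s18, s19, s20, s21, s22, s23, s32, s33, s34, s35, s36, s37, s38, s39, s40, s41])
      (a := s42)
      (l₂ := [s43])).trans
      ((List.perm_middle (l₁ := [m7, m6, m5, m3, m1, s0, s1, s2, s3, s4, s5, s6, s7, s8, s9, s10, s11, s12, s13, s14, s15, s16, s17, s18, s19, s20, s21, s22, s23, s32, s33, s34, s35, s36, s37, s38, s39, s40, s41])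
      (a := s43)
      (l₂ := [])).cons s42)

theorem all7 : All
    [m6, m5, m3, m1, s0, s1, s2, s3, s4, s5, s6, s7, s8, s9, s10, s11, s12, s13, s14, s15, s16, s17, s18, s19, s20, s21, s22, s23, s26, s27, s32, s33, s34, s35, s36, s37, s38, s39, s40, s41, s42, s43]
    36743 := by
  have h : All
      (s26 :: s27 :: [m6, m5, m3, m1, s0, s1, s2, s3, s4, s5, s6, s7, s8, s9, s10, s11, s12, s13, s14, s15, s16, s17, s18, s19, s20, s21, s22, s23, s32, s33, s34, s35, s36, s37, s38, s39, s40, s41, s42, s43])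
      36743 := by
    refine all_step ok7 ?_
    rw [e7]
    exact all8
  refine h.perm ?_
  exact (List.perm_middle (l₁ := [m6, m5, m3, m1, s0, s1, s2, s3, s4, s5, s6, s7, s8, s9, s10, s11, s12, s13, s14, s15, s16, s17, s18, s19, s20, s21, s22, s23])
      (a := s26)
      (l₂ := [s27, s32, s33, s34, s35, s36, s37, s38, s39, s40, s41, s42, s43])).trans
      ((List.perm_middle (l₁ := [m6, m5, m3, m1, s0, s1, s2, s3, s4, s5, s6, s7, s8, s9, s10, s11, s12, s13, s14, s15, s16, s17, s18, s19, s20, s21, s22, s23])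
      (a := s27)
      (l₂ := [s32, s33, s34, s35, s36, s37, s38, s39, s40, s41, s42, s43])).cons s26)

theorem all6 : All
    [m5, m4, m3, m2, m1, s0, s1, s2, s3, s4, s5, s6, s7, s8, s9, s10, s11, s12, s13, s14, s15, s16, s17, s18, s19, s20, s21, s22, s23, s26, s27, s32, s33, s34, s35, s36, s37, s38, s39, s40, s41, s42, s43]
    36743 := by
  have h : All
      (m4 :: m2 :: [m5, m3, m1, s0, s1, s2, s3, s4, s5, s6, s7, s8, s9, s10, s11, s12, s13, s14, s15, s16, s17, s18, s19, s20, s21, s22, s23, s26, s27, s32, s33, s34, s35, s36, s37, s38, s39, s40, s41, s42, s43])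
      36743 := by
    refine all_step ok6 ?_
    rw [e6]
    exact all7
  refine h.perm ?_
  exact (List.perm_middle (l₁ := [m5])
      (a := m4)
      (l₂ := [m3, m2, m1, s0, s1, s2, s3, s4, s5, s6, s7, s8, s9, s10, s11, s12, s13, s14, s15, s16, s17, s18, s19, s20, s21, s22, s23, s26, s27, s32, s33, s34, s35, s36, s37, s38, s39, s40, s41, s42, s43])).trans
      ((List.perm_middle (l₁ := [m5, m3])
      (a := m2)
      (l₂ := [m1, s0, s1, s2, s3, s4, s5, s6, s7, s8, s9, s10, s11, s12, s13, s14, s15, s16, s17, s18, s19, s20, s21, s22, s23, s26, s27, s32, s33, s34, s35, s36, s37, s38, s39, s40, s41, s42, s43])).cons m4)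

theorem all5 : All
    [m4, m3, m2, m1, s0, s1, s2, s3, s4, s5, s6, s7, s8, s9, s10, s11, s12, s13, s14, s15, s16, s17, s18, s19, s20, s21, s22, s23, s24, s25, s26, s27, s32, s33, s34, s35, s36, s37, s38, s39, s40, s41, s42, s43]
    36743 := by
  have h : All
      (s24 :: s25 :: [m4, m3, m2, m1, s0, s1, s2, s3, s4, s5, s6, s7, s8, s9, s10, s11, s12, s13, s14, s15, s16, s17, s18, s19, s20, s21, s22, s23, s26, s27, s32, s33, s34, s35, s36, s37, s38, s39, s40, s41, s42, s43])
      36743 := by
    refine all_step ok5 ?_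
    rw [e5]
    exact all6
  refine h.perm ?_
  exact (List.perm_middle (l₁ := [m4, m3, m2, m1, s0, s1, s2, s3, s4, s5, s6, s7, s8, s9, s10, s11, s12, s13, s14, s15, s16, s17, s18, s19, s20, s21, s22, s23])
      (a := s24)
      (l₂ := [s25, s26, s27, s32, s33, s34, s35, s36, s37, s38, s39, s40, s41, s42, s43])).trans
      ((List.perm_middle (l₁ := [m4, m3, m2, m1, s0, s1, s2, s3, s4, s5, s6, s7, s8, s9, s10, s11, s12, s13, s14, s15, s16, s17, s18, s19, s20, s21, s22, s23])
      (a := s25)
      (l₂ := [s26, s27, s32, s33, s34, s35, s36, s37, s38, s39, s40, s41, s42, s43])).cons s24)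

theorem all4 : All
    [m3, m2, m1, s0, s1, s2, s3, s4, s5, s6, s7, s8, s9, s10, s11, s12, s13, s14, s15, s16, s17, s18, s19, s20, s21, s22, s23, s24, s25, s26, s27, s32, s33, s34, s35, s36, s37, s38, s39, s40, s41, s42, s43, s44, s45]
    36743 := by
  have h : All
      (s44 :: s45 :: [m3, m2, m1, s0, s1, s2, s3, s4, s5, s6, s7, s8, s9, s10, s11, s12, s13, s14, s15, s16, s17, s18, s19, s20, s21, s22, s23, s24, s25, s26, s27, s32, s33, s34, s35, s36, s37, s38, s39, s40, s41, s42, s43])
      36743 := by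
    refine all_step ok4 ?_
    rw [e4]
    exact all5
  refine h.perm ?_
  exact (List.perm_middle (l₁ := [m3, m2, m1, s0, s1, s2, s3, s4, s5, s6, s7, s8, s9, s10, s11, s12, s13, s14, s15, s16, s17, s18, s19, s20, s21, s22, s23, s24, s25, s26, s27, s32, s33, s34, s35, s36, s37, s38, s39, s40, s41, s42, s43])
      (a := s44)
      (l₂ := [s45])).trans
      ((List.perm_middle (l₁ := [m3, m2, m1, s0, s1, s2, s3, s4, s5, s6, s7, s8, s9, s10, s11, s12, s13, s14, s15, s16, s17, s18, s19, s20, s21, s22, s23, s24, s25, s26, s27, s32, s33, s34, s35, s36, s37, s38, s39, s40, s41, s42, s43])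
      (a := s45)
      (l₂ := [])).cons s44)

theorem all3 : All
    [m2, m1, s0, s1, s2, s3, s4, s5, s6, s7, s8, s9, s10, s11, s12, s13, s14, s15, s16, s17, s18, s19, s20, s21, s22, s23, s24, s25, s26, s27, s28, s29, s32, s33, s34, s35, s36, s37, s38, s39, s40, s41, s42, s43, s44, s45]
    36743 := by
  have h : All
      (s28 :: s29 :: [m2, m1, s0, s1, s2, s3, s4, s5, s6, s7, s8, s9, s10, s11, s12, s13, s14, s15, s16, s17, s18, s19, s20, s21, s22, s23, s24, s25, s26, s27, s32, s33, s34, s35, s36, s37, s38, s39, s40, s41, s42, s43, s44, s45])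
      36743 := by
    refine all_step ok3 ?_
    rw [e3]
    exact all4
  refine h.perm ?_
  exact (List.perm_middle (l₁ := [m2, m1, s0, s1, s2, s3, s4, s5, s6, s7, s8, s9, s10, s11, s12, s13, s14, s15, s16, s17, s18, s19, s20, s21, s22, s23, s24, s25, s26, s27])
      (a := s28)
      (l₂ := [s29, s32, s33, s34, s35, s36, s37, s38, s39, s40, s41, s42, s43, s44, s45])).trans
      ((List.perm_middle (l₁ := [m2, m1, s0, s1, s2, s3, s4, s5, s6, s7, s8, s9, s10, s11, s12, s13, s14, s15, s16, s17, s18, s19, s20, s21, s22, s23, s24, s25, s26, s27])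
      (a := s29)
      (l₂ := [s32, s33, s34, s35, s36, s37, s38, s39, s40, s41, s42, s43, s44, s45])).cons s28)

theorem all2 : All
    [m1, m0, s0, s1, s2, s3, s4, s5, s6, s7, s8, s9, s10, s11, s12, s13, s14, s15, s16, s17, s18, s19, s20, s21, s22, s23, s24, s25, s26, s27, s28, s29, s32, s33, s34, s35, s36, s37, s38, s39, s40, s41, s42, s43, s44, s45, s46]
    36743 := by
  have h : All
      (s46 :: m0 :: [m1, s0, s1, s2, s3, s4, s5, s6, s7, s8, s9, s10, s11, s12, s13, s14, s15, s16, s17, s18, s19, s20, s21, s22, s23, s24, s25, s26, s27, s28, s29, s32, s33, s34, s35, s36, s37, s38, s39, s40, s41, s42, s43, s44, s45])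
      36743 := by
    refine all_step ok2 ?_
    rw [e2]
    exact all3
  refine h.perm ?_
  exact (List.perm_middle (l₁ := [m1, m0, s0, s1, s2, s3, s4, s5, s6, s7, s8, s9, s10, s11, s12, s13, s14, s15, s16, s17, s18, s19, s20, s21, s22, s23, s24, s25, s26, s27, s28, s29, s32, s33, s34, s35, s36, s37, s38, s39, s40, s41, s42, s43, s44, s45])
      (a := s46)
      (l₂ := [])).trans
      ((List.perm_middle (l₁ := [m1])
      (a := m0)
      (l₂ := [s0, s1, s2, s3, s4, s5, s6, s7, s8, s9, s10, s11, s12, s13, s14, s15, s16, s17, s18, s19, s20, s21, s22, s23, s24, s25, s26, s27, s28, s29, s32, s33, s34, s35, s36, s37, s38, s39, s40, s41, s42, s43, s44, s45])).cons s46)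

theorem all1 : All
    [m0, s0, s1, s2, s3, s4, s5, s6, s7, s8, s9, s10, s11, s12, s13, s14, s15, s16, s17, s18, s19, s20, s21, s22, s23, s24, s25, s26, s27, s28, s29, s30, s31, s32, s33, s34, s35, s36, s37, s38, s39, s40, s41, s42, s43, s44, s45, s46]
    36743 := by
  have h : All
      (s30 :: s31 :: [m0, s0, s1, s2, s3, s4, s5, s6, s7, s8, s9, s10, s11, s12, s13, s14, s15, s16, s17, s18, s19, s20, s21, s22, s23, s24, s25, s26, s27, s28, s29, s32, s33, s34, s35, s36, s37, s38, s39, s40, s41, s42, s43, s44, s45, s46])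
      36743 := by
    refine all_step ok1 ?_
    rw [e1]
    exact all2
  refine h.perm ?_
  exact (List.perm_middle (l₁ := [m0, s0, s1, s2, s3, s4, s5, s6, s7, s8, s9, s10, s11, s12, s13, s14, s15, s16, s17, s18, s19, s20, s21, s22, s23, s24, s25, s26, s27, s28, s29])
      (a := s30)
      (l₂ := [s31, s32, s33, s34, s35, s36, s37, s38, s39, s40, s41, s42, s43, s44, s45, s46])).trans
      ((List.perm_middle (l₁ := [m0, s0, s1, s2, s3, s4, s5, s6, s7, s8, s9, s10, s11, s12, s13, s14, s15, s16, s17, s18, s19, s20, s21, s22, s23, s24, s25, s26, s27, s28, s29])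
      (a := s31)
      (l₂ := [s32, s33, s34, s35, s36, s37, s38, s39, s40, s41, s42, s43, s44, s45, s46])).cons s30)

theorem all0 : All
    [s0, s1, s2, s3, s4, s5, s6, s7, s8, s9, s10, s11, s12, s13, s14, s15, s16, s17, s18, s19, s20, s21, s22, s23, s24, s25, s26, s27, s28, s29, s30, s31, s32, s33, s34, s35, s36, s37, s38, s39, s40, s41, s42, s43, s44, s45, s46, s47, s48]
    36743 := by
  have h : All
      (s47 :: s48 :: [s0, s1, s2, s3, s4, s5, s6, s7, s8, s9, s10, s11, s12, s13, s14, s15, s16, s17, s18, s19, s20, s21, s22, s23, s24, s25, s26, s27, s28, s29, s30, s31, s32, s33, s34, s35, s36, s37, s38, s39, s40, s41, s42, s43, s44, s45, s46])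
      36743 := by
    refine all_step ok0 ?_
    rw [e0]
    exact all1
  refine h.perm ?_
  exact (List.perm_middle (l₁ := [s0, s1, s2, s3, s4, s5, s6, s7, s8, s9, s10, s11, s12, s13, s14, s15, s16, s17, s18, s19, s20, s21, s22, s23, s24, s25, s26, s27, s28, s29, s30, s31, s32, s33, s34, s35, s36, s37, s38, s39, s40, s41, s42, s43, s44, s45, s46])
      (a := s47)
      (l₂ := [s48])).trans
      ((List.perm_middle (l₁ := [s0, s1, s2, s3, s4, s5, s6, s7, s8, s9, s10, s11, s12, s13, s14, s15, s16, s17, s18, s19, s20, s21, s22, s23, s24, s25, s26, s27, s28, s29, s30, s31, s32, s33, s34, s35, s36, s37, s38, s39, s40, s41, s42, s43, s44, s45, s46])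
      (a := s48)
      (l₂ := [])).cons s47)

theorem outs : (∃ t, Greedy.Output (fam.map str) t) ∧
    ∀ t, Greedy.Output (fam.map str) t → t.length = 36743 :=
  outputs (by decide) reduced all0

end Vale.Agent.P333.R3.H641.K8
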