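import Vale.Agent.P333.R3.H641.K8.Str

set_option autoImplicit false

/-!
P333: checks of steps of the greedy algorithm.
-/

namespace Vale.Agent.P333.R3.H641.K8

open Vale.Agent.P333.H476.Nm

theorem ok31 : stepOk s2 s3 1216
    [m30, m29, m27, m25, m23, m21, m19, m17, m15, m13, m11, m9, m7, m5, m3, m1] = true := by
  decide +kernel

theorem e31 : mrg s2 s3 1216 = m31 := by
  decide +kernel

theorem ok32 : stepOk m7 m5 330
    [m31, m30, m29, m27, m25, m23, m21, m19, m17, m15, m13, m11, m9, m3, m1] = true := by
  decide +kernel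

theorem e32 : mrg m7 m5 330 = m32 := by
  decide +kernel

end Vale.Agent.P333.R3.H641.K8
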